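import Mathlib

namespace Vale.Agent.P069

variable {X : Type} [NormedAddCommGroup X] [NormedSpace ℝ X]

/-- `N` is a norm on `X` equivalent to the given norm. -/
def IsEquivNorm (N : Seminorm ℝ X) : Prop :=
  ∃ c C : ℝ, 0 < c ∧ ∀ x : X, c * ‖x‖ ≤ N x ∧ N x ≤ C * ‖x‖

/-- Closed subspaces of finite codimension. -/
def IsCof (F : Submodule ℝ X) : Prop :=
  IsClosed (F : Set X) ∧ FiniteDimensional ℝ (X ⧸ F)

/-- The modulus of asymptotic uniform convexity, computed in the extended reals. -/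
noncomputable def aucModulus (N : Seminorm ℝ X) (t : ℝ) : EReal :=
  ⨅ (x : X) (_ : N x = 1), ⨆ (F : Submodule ℝ X) (_ : IsCof F),
    ⨅ (y : X) (_ : y ∈ F ∧ N y = 1), ((N (x + t • y) - 1 : ℝ) : EReal)

/-- The modulus of asymptotic midpoint uniform convexity, computed in the extended reals. -/
noncomputable def amucModulus (N : Seminorm ℝ X) (t : ℝ) : EReal :=
  ⨅ (x : X) (_ : N x = 1), ⨆ (F : Submodule ℝ X) (_ : IsCof F),
    ⨅ (y : X) (_ : y ∈ F ∧ N y = 1), ((max (N (x + t • y)) (N (x - t • y)) - 1 : ℝ) : EReal)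

def IsAUC (N : Seminorm ℝ X) : Prop := ∀ t : ℝ, 0 < t → 0 < aucModulus N t

def IsAMUC (N : Seminorm ℝ X) : Prop := ∀ t : ℝ, 0 < t → 0 < amucModulus N t

end Vale.Agent.P069
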