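import Vale.Agent.P069.Sign

namespace Vale.Agent.P069

open Finset

section general

variable {V : Type} [NormedAddCommGroup V] [NormedSpace ℝ V]

theorem exists_norming (f : V →L[ℝ] ℝ) {δ : ℝ} (hδ : 0 < δ) :
    ∃ x : V, ‖x‖ ≤ 1 ∧ ‖f‖ - δ < f x := by
  obtain ⟨x, hx, hfx⟩ := f.exists_lt_apply_of_lt_opNorm (show ‖f‖ - δ < ‖f‖ by linarith)
  rcases le_total 0 (f x) with h | h
  · exact ⟨x, hx.le, by rwa [Real.norm_eq_abs, abs_of_nonneg h] at hfx⟩
  · refine ⟨-x, by rw [norm_neg]; exact hx.le, ?_⟩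
    rw [map_neg]
    rwa [Real.norm_eq_abs, abs_of_nonpos h] at hfx

theorem small_of_upper (f : V →L[ℝ] ℝ) {η : ℝ} (hη : 0 < η) : ∃ δ : ℝ, 0 < δ ∧ ∀ x : V,
    ‖x‖ ≤ 1 → ‖f‖ - δ < f x → ∀ y : V,
      (∀ τ : ℝ, ‖x + τ • y‖ ^ 2 ≤ ‖x‖ ^ 2 + τ ^ 2 * ‖y‖ ^ 2) → |f y| ≤ η * ‖y‖ := by
  set τ := η / (‖f‖ + 1) with hτ
  have hf := norm_nonneg f
  have hτ0 : 0 < τ := by positivity
  have hτ1 : τ * (‖f‖ + 1) = η := by rw [hτ]; field_simp
  refine ⟨τ * η / 2, by positivity, fun x hx hfx y hy => ?_⟩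
  rcases eq_or_ne y 0 with rfl | hy0
  · simp
  have hyp : 0 < ‖y‖ := norm_pos_iff.2 hy0
  have key : ∀ c : ℝ, c ^ 2 * ‖y‖ ^ 2 = τ ^ 2 → c * f y ≤ τ * η := by
    intro c hc
    have h1 := hy c
    rw [hc] at h1
    have h2 : ‖x + c • y‖ ≤ 1 + τ ^ 2 / 2 := by
      refine abs_le_of_sq_le_sq' (h1.trans ?_) (by positivity) |>.2
      nlinarith [norm_nonneg x, sq_nonneg (τ ^ 2)]
    have h3 : f (x + c • y) ≤ ‖f‖ * (1 + τ ^ 2 / 2) :=
      (le_abs_self _).trans ((f.le_opNorm _).trans (mul_le_mul_of_nonneg_left h2 hf))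
    rw [map_add, map_smul, smul_eq_mul] at h3
    have h4 : ‖f‖ * τ ≤ η := by nlinarith
    nlinarith [mul_le_mul_of_nonneg_left h4 hτ0.le]
  have h1 := key (τ / ‖y‖) (by field_simp)
  have h2 := key (-(τ / ‖y‖)) (by field_simp)
  rw [div_mul_eq_mul_div, div_le_iff₀ hyp] at h1
  rw [neg_mul, div_mul_eq_mul_div, ← neg_div, div_le_iff₀ hyp] at h2
  rw [abs_le]
  constructor
  · nlinarith
  · nlinarith

end general

/-- The space: the dual of the James tree space on the forest. -/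
abbrev X : Type := E →L[ℝ] ℝ

def IsLow (F : Finset T) : Prop := ∀ a b, a ≤ b → b ∈ F → a ∈ F

theorem exists_low (G : Finset T) : ∃ F, IsLow F ∧ G ⊆ F := by
  refine ⟨G.biUnion anc, fun a b hab hb => ?_, fun s hs => ?_⟩
  · rw [mem_biUnion] at *
    obtain ⟨c, hc, hb⟩ := hb
    exact ⟨c, hc, mem_anc.2 (hab.trans (mem_anc.1 hb))⟩
  · exact mem_biUnion.2 ⟨s, hs, mem_anc.2 le_rfl⟩

theorem IsLow.cvx {F : Finset T} (h : IsLow F) : Cvx (· ∈ F) :=
  fun _ b c _ hb _ hcb => h c b hcb hb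

theorem IsLow.cvx_not {F : Finset T} (h : IsLow F) : Cvx (fun s => ¬ s ∈ F) :=
  fun a _ c ha _ hac _ hc => ha (h a c hac hc)

theorem cvx_idx (n : ℕ) : Cvx (fun s => s.idx < n) := fun a _ c ha _ hac _ => by
  show c.idx < n
  rw [← hac.1]
  exact ha

theorem cvx_idx_not (n : ℕ) : Cvx (fun s => ¬ s.idx < n) := fun a _ c ha _ hac _ => by
  show ¬ c.idx < n
  rw [← hac.1]
  exact ha

theorem apply_eq_sum (f : X) (y : E) (G : Finset T) (hG : supp y ⊆ G) :
    f y = ∑ s ∈ G, y s * f (uv s) := by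
  conv_lhs => rw [expand y G hG]
  rw [map_sum]
  simp

theorem comb_ap (G : Finset T) (a : T → ℝ) (c : T) :
    (∑ s ∈ G, a s • uv s : E) c = if c ∈ G then a c else 0 := by
  have : (∑ s ∈ G, a s • uv s : E) c = ∑ s ∈ G, (a s • uv s) c :=
    Finsupp.finset_sum_apply _ _ _
  rw [this]
  simp only [smul_ap, uv_ap, mul_ite, mul_one, mul_zero, sum_ite_eq']

theorem tail_trees (f : X) {η : ℝ} (hη : 0 < η) :
    ∃ n : ℕ, ∀ y : E, (∀ s, s.idx < n → y s = 0) → |f y| ≤ η * ‖y‖ := by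
  obtain ⟨δ, hδ, h⟩ := small_of_upper f hη
  obtain ⟨x, hx, hfx⟩ := exists_norming f hδ
  refine ⟨(supp x).sup (fun s => s.idx) + 1, fun y hy => h x hx hfx y fun τ => ?_⟩
  have := upper_two ((supp x).sup (fun s => s.idx) + 1) x (τ • y) (fun s hs => by
    by_contra h0
    have : s ∈ supp x := by
      by_contra h1
      exact h0 (not_mem_supp.1 h1)
    exact hs (Nat.lt_succ_of_le (le_sup (f := fun s : T => s.idx) this)))
    (fun s hs => by rw [smul_ap, hy s hs, mul_zero])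
  rwa [norm_smul, mul_pow, Real.norm_eq_abs, sq_abs] at this

theorem sum_sq_le (f : X) (G : Finset T) (m : ℝ)
    (h : ‖(∑ s ∈ G, f (uv s) • uv s : E)‖ ^ 2 ≤ m * ∑ s ∈ G, f (uv s) ^ 2) (hm : 0 ≤ m) :
    ∑ s ∈ G, f (uv s) ^ 2 ≤ m * ‖f‖ ^ 2 := by
  set A := ∑ s ∈ G, f (uv s) ^ 2 with hA
  have hA0 : 0 ≤ A := sum_nonneg fun _ _ => sq_nonneg _
  have h1 : f (∑ s ∈ G, f (uv s) • uv s) = A := by
    rw [map_sum, hA]
    exact sum_congr rfl fun s _ => by rw [map_smul, smul_eq_mul, sq]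
  have h2 := f.le_opNorm (∑ s ∈ G, f (uv s) • uv s)
  rw [h1, Real.norm_eq_abs, abs_of_nonneg hA0] at h2
  have h3 : A ^ 2 ≤ ‖f‖ ^ 2 * (m * A) := by
    refine (pow_le_pow_left₀ hA0 h2 2).trans ?_
    rw [mul_pow]
    exact mul_le_mul_of_nonneg_left h (sq_nonneg _)
  rcases hA0.eq_or_lt with h0 | h0
  · rw [← h0]
    positivity
  · nlinarith

theorem sum_supp_comb (G : Finset T) (a : T → ℝ) :
    ∑ c ∈ supp (∑ s ∈ G, a s • uv s : E), (∑ s ∈ G, a s • uv s : E) c ^ 2 ≤ ∑ s ∈ G, a s ^ 2 := by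
  have hsub : supp (∑ s ∈ G, a s • uv s : E) ⊆ G := fun c hc => by
    by_contra h
    exact not_mem_supp.2 (by rw [comb_ap, if_neg h]) hc
  refine (sum_le_sum_of_subset_of_nonneg hsub fun _ _ _ => sq_nonneg _).trans (le_of_eq ?_)
  exact sum_congr rfl fun c hc => by rw [comb_ap, if_pos hc]

theorem tail_low (f : X) (n : ℕ) {η : ℝ} (hη : 0 < η) : ∃ G : Finset T, ∀ y : E,
    (∀ s, ¬ s.idx < n → y s = 0) → (∀ s ∈ G, y s = 0) → |f y| ≤ η * ‖y‖ := by
  have hsum : Summable (fun s : T => if s.idx < n then f (uv s) ^ 2 else 0) := by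
    refine summable_of_sum_le (c := n * ‖f‖ ^ 2) (fun s => by
      simp only [Pi.zero_apply]; split_ifs <;> positivity) fun G => ?_
    rw [← sum_filter]
    refine sum_sq_le f _ n ?_ (Nat.cast_nonneg n)
    refine (norm_sq_le_l2 n _ fun s hs => ?_).trans
      (mul_le_mul_of_nonneg_left (sum_supp_comb _ _) (Nat.cast_nonneg n))
    rw [comb_ap]
    refine if_neg fun h => hs ?_
    exact (mem_filter.1 h).2
  obtain ⟨G, hG⟩ := summable_iff_vanishing_norm.1 hsum (η ^ 2) (by positivity)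
  refine ⟨G, fun y hy hyG => ?_⟩
  have h1 := hG (supp y) (disjoint_left.2 fun s hs hs' => not_mem_supp.2 (hyG s hs') hs)
  have h2 : ∑ s ∈ supp y, (if s.idx < n then f (uv s) ^ 2 else 0) = ∑ s ∈ supp y, f (uv s) ^ 2 :=
    sum_congr rfl fun s hs => if_pos (by
      by_contra h
      exact not_mem_supp.2 (hy s h) hs)
  rw [h2, Real.norm_eq_abs, abs_of_nonneg (sum_nonneg fun _ _ => sq_nonneg _)] at h1
  rw [apply_eq_sum f y _ subset_rfl]
  refine abs_le_of_sq_le_sq ((sum_mul_sq_le_sq_mul_sq _ _ _).trans ?_) (by positivity)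
  rw [mul_pow, mul_comm (η ^ 2)]
  exact mul_le_mul (l2_le_norm_sq _ y) h1.le (sum_nonneg fun _ _ => sq_nonneg _) (sq_nonneg _)

/-- The unit vector basis is shrinking. -/
theorem shrinking (f : X) {η : ℝ} (hη : 0 < η) (G₀ : Finset T) : ∃ F : Finset T, IsLow F ∧
    G₀ ⊆ F ∧ ∀ y : E, (∀ s ∈ F, y s = 0) → |f y| ≤ η * ‖y‖ := by
  classical
  obtain ⟨n, hn⟩ := tail_trees f (half_pos hη)
  obtain ⟨G, hG⟩ := tail_low f n (half_pos hη)
  obtain ⟨F, hF, hsub⟩ := exists_low (G₀ ∪ G)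
  refine ⟨F, hF, subset_union_left.trans hsub, fun y hy => ?_⟩
  have h1 := hG (res (fun s => s.idx < n) y) (fun s hs => by rw [res_ap, if_neg hs])
    (fun s hs => by rw [res_ap, hy s (hsub (mem_union_right _ hs)), ite_self])
  have h2 := hn (res (fun s => ¬ s.idx < n) y) (fun s hs => by rw [res_ap, if_neg (not_not.2 hs)])
  have h3 := norm_res_le (cvx_idx n) y
  have h4 := norm_res_le (cvx_idx_not n) y
  conv_lhs => rw [← res_add_res (fun s => s.idx < n) y, map_add]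
  refine (abs_add_le _ _).trans ?_
  nlinarith [mul_le_mul_of_nonneg_left h3 (half_pos hη).le,
    mul_le_mul_of_nonneg_left h4 (half_pos hη).le]

noncomputable def resL (p : T → Prop) (hp : Cvx p) : E →L[ℝ] E :=
  (res p).mkContinuous 1 fun x => by rw [one_mul]; exact norm_res_le hp x

theorem resL_ap (p : T → Prop) (hp : Cvx p) (x : E) : resL p hp x = res p x := rfl

theorem norm_comp_resL (g : X) (p : T → Prop) (hp : Cvx p) : ‖g.comp (resL p hp)‖ ≤ ‖g‖ :=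
  ContinuousLinearMap.opNorm_le_bound _ (norm_nonneg _) fun x =>
    (g.le_opNorm _).trans (mul_le_mul_of_nonneg_left (norm_res_le hp x) (norm_nonneg _))

/-- Sum functional of a segment. -/
noncomputable def sf (S : Finset T) (hS : IsSeg S) : X :=
  LinearMap.mkContinuous
    { toFun := fun x : E => ∑ s ∈ S, x s
      map_add' := fun x y => by simp [sum_add_distrib]
      map_smul' := fun c x => by simp [mul_sum] } 1
    fun x => by rw [one_mul]; exact seg_abs_le hS x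

theorem sf_ap (S : Finset T) (hS : IsSeg S) (x : E) : sf S hS x = ∑ s ∈ S, x s := rfl

theorem norm_sf_le (S : Finset T) (hS : IsSeg S) : ‖sf S hS‖ ≤ 1 :=
  LinearMap.mkContinuous_norm_le _ zero_le_one _

theorem norm_sf_ge (S : Finset T) (hS : IsSeg S) {a : T} (ha : a ∈ S) : 1 ≤ ‖sf S hS‖ := by
  have h := (sf S hS).le_opNorm (uv a)
  rw [sf_ap] at h
  simp only [uv_ap, sum_ite_eq, ha, if_true, norm_one] at h
  nlinarith [norm_uv_le a, norm_nonneg (sf S hS), norm_nonneg (uv a)]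

noncomputable def ev (s : T) : X := sf {s} (isSeg_singleton s)

theorem ev_ap (s : T) (x : E) : ev s x = x s := by rw [ev, sf_ap, sum_singleton]

theorem res_mem (F : Finset T) (x : E) : res (· ∈ F) x = ∑ s ∈ F, x s • uv s := by
  refine E.ext' fun c => ?_
  rw [res_ap, comb_ap F (fun s => x s)]

theorem dual_upper {F : Finset T} (hF : IsLow F) (g h : X) :
    ‖g.comp (resL _ hF.cvx) + h.comp (resL _ hF.cvx_not)‖ ^ 2 ≤
      ‖g.comp (resL _ hF.cvx)‖ ^ 2 + ‖h.comp (resL _ hF.cvx_not)‖ ^ 2 := by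
  classical
  set g' := g.comp (resL _ hF.cvx) with hg'
  set h' := h.comp (resL _ hF.cvx_not) with hh'
  rw [← Real.le_sqrt (norm_nonneg _) (by positivity)]
  refine ContinuousLinearMap.opNorm_le_bound _ (Real.sqrt_nonneg _) fun x => ?_
  have e1 : g' x = g' (res (· ∈ F) x) := by
    simp only [hg', ContinuousLinearMap.comp_apply, resL_ap]
    congr 1
    refine E.ext' fun s => ?_
    rw [res_ap, res_ap, res_ap]
    split_ifs <;> rfl
  have e2 : h' x = h' (res (fun s => ¬ s ∈ F) x) := by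
    simp only [hh', ContinuousLinearMap.comp_apply, resL_ap]
    congr 1
    refine E.ext' fun s => ?_
    rw [res_ap, res_ap, res_ap]
    split_ifs <;> rfl
  have h1 := g'.le_opNorm (res (· ∈ F) x)
  have h2 := h'.le_opNorm (res (fun s => ¬ s ∈ F) x)
  rw [← e1] at h1
  rw [← e2] at h2
  have h3 := lower_two hF.cvx hF.cvx_not x
  rw [ContinuousLinearMap.add_apply]
  refine (norm_add_le _ _).trans ((add_le_add h1 h2).trans ?_)
  refine abs_le_of_sq_le_sq' ?_ (by positivity) |>.2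
  rw [mul_pow, Real.sq_sqrt (by positivity)]
  refine le_trans ?_ (mul_le_mul_of_nonneg_left h3 (by positivity))
  nlinarith [sq_nonneg (‖g'‖ * ‖res (fun s => ¬ s ∈ F) x‖ - ‖h'‖ * ‖res (· ∈ F) x‖)]

theorem split_dual {F : Finset T} (hF : IsLow F) (g : X) :
    g = ∑ s ∈ F, g (uv s) • ev s + g.comp (resL _ hF.cvx_not) := by
  ext x
  conv_lhs => rw [← res_add_res (· ∈ F) x, map_add, res_mem, map_sum]
  simp only [ContinuousLinearMap.add_apply, ContinuousLinearMap.sum_apply,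
    ContinuousLinearMap.smul_apply, ev_ap, map_smul, smul_eq_mul, ContinuousLinearMap.comp_apply,
    resL_ap]
  congr 1
  exact sum_congr rfl fun _ _ => mul_comm _ _

theorem dense_bidual (ξ : X →L[ℝ] ℝ) {η : ℝ} (hη : 0 < η) :
    ∃ x : E, ∀ g : X, |ξ g - g x| ≤ η * ‖g‖ := by
  obtain ⟨δ, hδ, h⟩ := small_of_upper ξ hη
  obtain ⟨g₀, hg₀, hξ₀⟩ := exists_norming ξ (half_pos hδ)
  have hξ := norm_nonneg ξ
  obtain ⟨F, hF, -, hsm⟩ := shrinking g₀ (show 0 < δ / 2 / (‖ξ‖ + 1) by positivity) ∅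
  have h1 : ‖g₀.comp (resL _ hF.cvx_not)‖ ≤ δ / 2 / (‖ξ‖ + 1) := by
    refine ContinuousLinearMap.opNorm_le_bound _ (by positivity) fun x => ?_
    refine (hsm (res (fun s => ¬ s ∈ F) x) fun s hs => by
      rw [res_ap, if_neg (not_not.2 hs)]).trans ?_
    exact mul_le_mul_of_nonneg_left (norm_res_le hF.cvx_not x) (by positivity)
  have h2 : g₀ = g₀.comp (resL _ hF.cvx) + g₀.comp (resL _ hF.cvx_not) := by
    ext x
    conv_lhs => rw [← res_add_res (· ∈ F) x, map_add]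
    rfl
  have h3 : ξ (g₀.comp (resL _ hF.cvx_not)) ≤ δ / 2 := by
    refine (le_abs_self _).trans ((ξ.le_opNorm _).trans ?_)
    refine (mul_le_mul_of_nonneg_left h1 hξ).trans ?_
    rw [mul_div_assoc', div_le_iff₀ (by positivity)]
    nlinarith
  have h4 : ‖ξ‖ - δ < ξ (g₀.comp (resL _ hF.cvx)) := by
    rw [h2, map_add] at hξ₀
    linarith
  refine ⟨∑ s ∈ F, ξ (ev s) • uv s, fun g => ?_⟩
  have h5 := h _ ((norm_comp_resL _ _ _).trans hg₀) h4 (g.comp (resL _ hF.cvx_not)) fun τ => by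
    have := dual_upper hF g₀ (τ • g)
    rw [ContinuousLinearMap.smul_comp, norm_smul, mul_pow, Real.norm_eq_abs, sq_abs] at this
    exact this
  have h6 : ξ g - g (∑ s ∈ F, ξ (ev s) • uv s) = ξ (g.comp (resL _ hF.cvx_not)) := by
    conv_lhs => rw [split_dual hF g, map_add, map_sum, ← split_dual hF g, map_sum]
    simp only [map_smul, smul_eq_mul]
    rw [sum_congr rfl fun s _ => mul_comm (g (uv s)) (ξ (ev s))]
    ring
  rw [h6]
  exact h5.trans (mul_le_mul_of_nonneg_left (norm_comp_resL _ _ _) hη.le)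

theorem reflexive : Function.Surjective (NormedSpace.inclusionInDoubleDual ℝ X) := by
  intro φ
  refine ⟨φ.comp (NormedSpace.inclusionInDoubleDual ℝ E), ?_⟩
  ext ξ
  set f₀ : X := φ.comp (NormedSpace.inclusionInDoubleDual ℝ E) with hf₀
  show ξ f₀ = φ ξ
  refine eq_of_forall_dist_le fun ε hε => ?_
  have hφ := norm_nonneg φ
  have hf := norm_nonneg f₀
  obtain ⟨x, hx⟩ := dense_bidual ξ (show 0 < ε / (‖φ‖ + ‖f₀‖ + 1) by positivity)
  have h1 : ‖ξ - NormedSpace.inclusionInDoubleDual ℝ E x‖ ≤ ε / (‖φ‖ + ‖f₀‖ + 1) :=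
    ContinuousLinearMap.opNorm_le_bound _ (by positivity) fun g => hx g
  have h2 := φ.le_opNorm (ξ - NormedSpace.inclusionInDoubleDual ℝ E x)
  have h3 : φ (ξ - NormedSpace.inclusionInDoubleDual ℝ E x) = φ ξ - f₀ x := by
    rw [map_sub]
    rfl
  rw [h3, Real.norm_eq_abs] at h2
  have h4 := hx f₀
  have h5 := mul_le_mul_of_nonneg_left h1 hφ
  rw [Real.dist_eq, show ξ f₀ - φ ξ = (ξ f₀ - f₀ x) - (φ ξ - f₀ x) by ring]
  refine (abs_sub _ _).trans ?_
  have h6 : ε / (‖φ‖ + ‖f₀‖ + 1) * (‖φ‖ + ‖f₀‖ + 1) = ε := by field_simp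
  have h7 : 0 < ε / (‖φ‖ + ‖f₀‖ + 1) := by positivity
  nlinarith

end Vale.Agent.P069
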