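import Vale.Agent.P069.Dual
import Vale.Agent.P069.Defs

namespace Vale.Agent.P069

open Finset Filter Topology

section general

variable {V : Type} [NormedAddCommGroup V] [NormedSpace ℝ V]

theorem near_cof (e : ℕ → V) (he : ∀ ψ : V →L[ℝ] ℝ, Tendsto (fun m => ψ (e m)) atTop (𝓝 0))
    {F : Submodule ℝ V} (hF : IsCof F) {ε : ℝ} (hε : 0 < ε) :
    ∃ m, ∃ y ∈ F, ‖e m - y‖ < ε := by
  haveI := hF.1
  haveI := hF.2
  let b := Module.finBasis ℝ (V ⧸ F)
  let q : V →L[ℝ] V ⧸ F := F.mkQ.mkContinuous 1 fun v => by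
    rw [one_mul]
    exact Submodule.Quotient.norm_mk_le F v
  have h1 : ∀ k, Tendsto (fun m => b.repr (q (e m)) k • b k) atTop (𝓝 0) := by
    intro k
    have := he ((LinearMap.toContinuousLinearMap (b.coord k)).comp q)
    simpa using this.smul_const (b k)
  have h2 : Tendsto (fun m => q (e m)) atTop (𝓝 0) := by
    have := tendsto_finset_sum univ fun k _ => h1 k
    simpa only [b.sum_repr, sum_const_zero] using this
  have h3 := (tendsto_zero_iff_norm_tendsto_zero.1 h2).eventually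
    (gt_mem_nhds (half_pos hε))
  obtain ⟨m, hm⟩ := h3.exists
  obtain ⟨z, hz, hz'⟩ := Submodule.Quotient.norm_mk_lt (q (e m)) (half_pos hε)
  refine ⟨m, e m - z, ?_, by rw [sub_sub_cancel]; linarith⟩
  exact (Submodule.Quotient.eq F).1 hz.symm

theorem auc_spec {N : Seminorm ℝ V} (h : IsAUC N) {t : ℝ} (ht : 0 < t) : ∃ δ : ℝ, 0 < δ ∧
    ∀ x, N x = 1 → ∃ F, IsCof F ∧ ∀ y ∈ F, N y = 1 → 1 + δ < N (x + t • y) := by
  obtain ⟨δ, h0, hδ⟩ := EReal.lt_iff_exists_real_btwn.1 (h t ht)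
  refine ⟨δ, by exact_mod_cast h0, fun x hx => ?_⟩
  have h1 := hδ.trans_le (iInf₂_le x hx)
  obtain ⟨F, h2⟩ := lt_iSup_iff.1 h1
  obtain ⟨hF, h3⟩ := lt_iSup_iff.1 h2
  refine ⟨F, hF, fun y hy hNy => ?_⟩
  have h4 := h3.trans_le (iInf₂_le y ⟨hy, hNy⟩)
  have h5 : δ < N (x + t • y) - 1 := by exact_mod_cast h4
  linarith

theorem amuc_of {N : Seminorm ℝ V} (h : ∀ t : ℝ, 0 < t → ∃ δ : ℝ, 0 < δ ∧ ∀ x, N x = 1 →
    ∃ F, IsCof F ∧ ∀ y ∈ F, N y = 1 → 1 + δ ≤ max (N (x + t • y)) (N (x - t • y))) :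
    IsAMUC N := by
  intro t ht
  obtain ⟨δ, h0, hδ⟩ := h t ht
  refine lt_of_lt_of_le (show (0 : EReal) < (δ : ℝ) by exact_mod_cast h0) ?_
  refine le_iInf₂ fun x hx => ?_
  obtain ⟨F, hF, hy⟩ := hδ x hx
  refine le_iSup₂_of_le F hF (le_iInf₂ fun y hy' => ?_)
  have := hy y hy'.1 hy'.2
  exact_mod_cast (show δ ≤ max (N (x + t • y)) (N (x - t • y)) - 1 by linarith)

theorem auc_step {N : Seminorm ℝ V} {c C : ℝ} (hc : 0 < c)
    (hN : ∀ x, c * ‖x‖ ≤ N x ∧ N x ≤ C * ‖x‖) (hcC : c ≤ C) (h : IsAUC N) :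
    ∃ κ : ℝ, 0 < κ ∧ ∀ z : V, 1 ≤ ‖z‖ → ‖z‖ ≤ 1 → ∀ e : ℕ → V, (∀ m, 1 ≤ ‖e m‖) →
      (∀ ψ : V →L[ℝ] ℝ, Tendsto (fun m => ψ (e m)) atTop (𝓝 0)) →
      ∃ m, N z + κ ≤ N (z + e m) := by
  have hC : 0 < C := hc.trans_le hcC
  obtain ⟨δ, hδ, hs⟩ := auc_spec h (show 0 < c / (2 * C) by positivity)
  refine ⟨c * δ / 2, by positivity, fun z hz1 hz2 e he hw => ?_⟩
  have hz3 : c ≤ N z := by nlinarith [(hN z).1]
  have hz4 : N z ≤ C := by nlinarith [(hN z).2]
  have hzp : 0 < N z := hc.trans_le hz3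
  obtain ⟨F, hF, hFy⟩ := hs ((N z)⁻¹ • z) (by
    rw [map_smul_eq_mul, Real.norm_eq_abs, abs_of_pos (inv_pos.2 hzp), inv_mul_cancel₀ hzp.ne'])
  obtain ⟨m, y, hy, hym⟩ := near_cof e hw hF (show 0 < min (1 / 2) (c * δ / (2 * C)) by positivity)
  have hym1 := hym.trans_le (min_le_left _ _)
  have hym2 := hym.trans_le (min_le_right _ _)
  have hy1 : 1 / 2 ≤ ‖y‖ := by
    have := norm_add_le (e m - y) y
    rw [sub_add_cancel] at this
    linarith [he m]
  have hy2 : c / 2 ≤ N y := by nlinarith [(hN y).1]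
  have hyp : 0 < N y := by linarith
  have h1 := hFy ((N y)⁻¹ • y) (F.smul_mem _ hy) (by
    rw [map_smul_eq_mul, Real.norm_eq_abs, abs_of_pos (inv_pos.2 hyp), inv_mul_cancel₀ hyp.ne'])
  set l := c / (2 * C) * (N y)⁻¹ * N z with hl
  have hl0 : 0 < l := by positivity
  have hl1 : l ≤ 1 := by
    rw [hl, div_mul_eq_mul_div, div_mul_eq_mul_div, div_le_one (by positivity), mul_assoc,
      mul_comm (N y)⁻¹, ← mul_assoc, ← div_eq_mul_inv, div_le_iff₀ hyp]
    nlinarith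
  have h2 : (N z)⁻¹ • z + (c / (2 * C)) • (N y)⁻¹ • y =
      (N z)⁻¹ • ((1 - l) • z + l • (z + y)) := by
    rw [smul_add l, ← add_assoc, ← add_smul, sub_add_cancel, one_smul, smul_add, smul_smul,
      smul_smul, hl]
    congr 2
    field_simp
  rw [h2, map_smul_eq_mul, Real.norm_eq_abs, abs_of_pos (inv_pos.2 hzp), inv_mul_eq_div,
    lt_div_iff₀ hzp] at h1
  have h3 := map_add_le_add N ((1 - l) • z) (l • (z + y))
  rw [map_smul_eq_mul, map_smul_eq_mul, Real.norm_eq_abs, Real.norm_eq_abs,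
    abs_of_nonneg (by linarith), abs_of_pos hl0] at h3
  have h4 : δ * N z < l * (N (z + y) - N z) := by nlinarith
  have h5 : 0 < N (z + y) - N z := by
    by_contra h0
    nlinarith [mul_pos hδ hzp, mul_nonneg hl0.le (show 0 ≤ -(N (z + y) - N z) by linarith)]
  have h6 : δ * c < N (z + y) - N z := by nlinarith
  have h7 := map_add_le_add N (z + e m) (-(e m - y))
  rw [show z + e m + -(e m - y) = z + y by abel, map_neg_eq_map] at h7
  have h8 : N (e m - y) ≤ c * δ / 2 := by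
    refine (hN _).2.trans ?_
    rw [lt_div_iff₀ (by positivity)] at hym2
    nlinarith
  exact ⟨m, by nlinarith⟩

theorem auc_of_finite [FiniteDimensional ℝ V] : IsAUC (normSeminorm ℝ V) := by
  intro t _
  refine lt_of_lt_of_le (show (0 : EReal) < ⊤ from EReal.zero_lt_top) ?_
  refine le_iInf₂ fun x _ => ?_
  refine le_iSup₂_of_le ⊥ ⟨by simp, inferInstance⟩ (le_iInf₂ fun y hy => ?_)
  have h1 : y = 0 := by simpa using hy.1
  have h2 := hy.2
  rw [h1] at h2
  simp at h2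

end general

def child (c : T) (h : c.l.length < c.idx) (m : ℕ) : T :=
  ⟨c.idx, c.l ++ [m], by simpa using h⟩

theorem child_inj (c : T) (h : c.l.length < c.idx) : Function.Injective (child c h) := by
  intro m m' hm
  have := congrArg T.l hm
  simpa [child] using this

theorem sf_child (c : T) (h : c.l.length < c.idx) (m : ℕ) :
    sf (anc (child c h m)) (isSeg_anc _) = sf (anc c) (isSeg_anc _) + ev (child c h m) := by
  have h1 : anc (child c h m) = insert (child c h m) (anc c) := by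
    ext s
    rw [mem_insert, mem_anc, mem_anc, le_def, le_def]
    constructor
    · rintro ⟨h1, h2⟩
      rcases List.prefix_concat_iff.1 h2 with h3 | h3
      · exact Or.inl (T.ext h1 h3)
      · exact Or.inr ⟨h1, h3⟩
    · rintro (rfl | ⟨h1, h2⟩)
      · exact ⟨rfl, List.prefix_refl _⟩
      · exact ⟨h1, h2.trans (List.prefix_append _ _)⟩
  have h2 : child c h m ∉ anc c := by
    intro h3
    have := (mem_anc.1 h3).2.length_le
    simp [child] at this
  ext x
  rw [ContinuousLinearMap.add_apply, sf_ap, sf_ap, ev_ap, h1, sum_insert h2, add_comm]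

theorem weak_null (d : ℕ → T) (hd : Function.Injective d) (ψ : X →L[ℝ] ℝ) :
    Tendsto (fun m => ψ (ev (d m))) atTop (𝓝 0) := by
  rw [Metric.tendsto_nhds]
  intro ε hε
  obtain ⟨x, hx⟩ := dense_bidual ψ (half_pos hε)
  have hfin : (d ⁻¹' (supp x : Set T)).Finite := (supp x).finite_toSet.preimage hd.injOn
  have := hfin.compl_mem_cofinite
  rw [Nat.cofinite_eq_atTop] at this
  filter_upwards [this] with m hm
  have h0 : x (d m) = 0 := not_mem_supp.1 hm
  have h1 := hx (ev (d m))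
  rw [ev_ap, h0, sub_zero] at h1
  have h2 : ‖ev (d m)‖ ≤ 1 := norm_sf_le _ _
  rw [Real.dist_eq, sub_zero]
  nlinarith

theorem not_auc : ¬ ∃ N : Seminorm ℝ X, IsEquivNorm N ∧ IsAUC N := by
  rintro ⟨N, ⟨c, C, hc, hN⟩, h⟩
  have hone : ∀ a : T, 1 ≤ ‖sf (anc a) (isSeg_anc a)‖ := fun a =>
    norm_sf_ge _ _ (mem_anc.2 le_rfl)
  have hcC : c ≤ C := by
    have h1 := hone ⟨0, [], le_rfl⟩
    have h2 := (hN (sf (anc ⟨0, [], le_rfl⟩) (isSeg_anc _))).1.trans (hN _).2
    exact le_of_mul_le_mul_right h2 (by linarith)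
  obtain ⟨κ, hκ, hstep⟩ := auc_step hc hN hcC h
  have key : ∀ n j : ℕ, j ≤ n → ∃ a : T, a.idx = n ∧ a.l.length = j ∧
      j * κ ≤ N (sf (anc a) (isSeg_anc a)) := by
    intro n j
    induction j with
    | zero => exact fun _ => ⟨⟨n, [], Nat.zero_le _⟩, rfl, rfl, by simp⟩
    | succ j ih =>
      intro hj
      obtain ⟨a, h1, h2, h3⟩ := ih (by omega)
      have ha : a.l.length < a.idx := by omega
      obtain ⟨m, hm⟩ := hstep _ (hone a) (norm_sf_le _ _) (fun m => ev (child a ha m))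
        (fun m => norm_sf_ge _ _ (mem_singleton_self _)) (weak_null _ (child_inj a ha))
      refine ⟨child a ha m, h1, by simp [child, h2], ?_⟩
      rw [sf_child]
      push_cast
      linarith
  obtain ⟨n, hn⟩ := exists_nat_gt (C / κ)
  obtain ⟨a, -, -, h3⟩ := key n n le_rfl
  have h4 := (hN (sf (anc a) (isSeg_anc a))).2
  have h5 := norm_sf_le _ (isSeg_anc a)
  rw [div_lt_iff₀ hκ] at hn
  nlinarith

theorem cof_vanish (F : Finset T) :
    ∃ Y : Submodule ℝ X, IsCof Y ∧ ∀ g ∈ Y, ∀ s ∈ F, g (uv s) = 0 := by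
  let L : X →L[ℝ] (F → ℝ) :=
    ContinuousLinearMap.pi fun s => ContinuousLinearMap.apply ℝ ℝ (uv s.1)
  refine ⟨LinearMap.ker L.toLinearMap, ⟨L.isClosed_ker, ?_⟩, fun g hg s hs => ?_⟩
  · exact LinearEquiv.finiteDimensional (LinearMap.quotKerEquivRange L.toLinearMap).symm
  · exact congrFun (LinearMap.mem_ker.1 hg) ⟨s, hs⟩

theorem amuc : IsAMUC (normSeminorm ℝ X) := by
  classical
  refine amuc_of fun t ht => ?_
  set a := t ^ 2 / 24 with ha
  have ha0 : 0 < a := by positivity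
  set η := a / (4 * (1 + a)) with hη
  have hη0 : 0 < η := by positivity
  have hη1 : η * (1 + a) = a / 4 := by rw [hη]; field_simp
  refine ⟨2 * η, by positivity, fun f hf => ?_⟩
  rw [coe_normSeminorm] at hf
  obtain ⟨x, hx, hfx⟩ := exists_norming f hη0
  obtain ⟨F, hF, hxF, hsm⟩ := shrinking f (show 0 < η / 2 by positivity) (supp x)
  obtain ⟨Y, hY, hYF⟩ := cof_vanish F
  refine ⟨Y, hY, fun g hg hg1 => ?_⟩
  simp only [coe_normSeminorm] at hg1 ⊢
  obtain ⟨y₀, hy₀, hgy⟩ := exists_norming g (show 0 < η / 2 by positivity)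
  have hg0 : ∀ z : E, g (res (· ∈ F) z) = 0 := fun z => by
    rw [res_mem, map_sum]
    exact sum_eq_zero fun s hs => by rw [map_smul, hYF g hg s hs, smul_zero]
  have hgy' : g (res (fun s => ¬ s ∈ F) y₀) = g y₀ := by
    conv_rhs => rw [← res_add_res (· ∈ F) y₀, map_add, hg0, zero_add]
  have hxU : ∀ s, ¬ s ∈ F → x s = 0 := fun s hs => not_mem_supp.1 fun h => hs (hxF h)
  have hgx : g x = 0 := by
    rw [← hg0 x]
    congr 1
    refine E.ext' fun s => ?_
    rw [res_ap]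
    split_ifs with h
    · rfl
    · exact hxU s h
  obtain ⟨u, u', huu, hu, hu', hn, hn'⟩ := decomposition (fun s => ¬ s ∈ F)
    (fun a b ha hab hb => ha (hF a b hab hb)) x (res (fun s => ¬ s ∈ F) y₀) hxU
    (fun s hs => by rw [res_ap, if_neg hs]) (t / 6) (by positivity)
  have hy1 : ‖res (fun s => ¬ s ∈ F) y₀‖ ≤ 1 := (norm_res_le hF.cvx_not y₀).trans hy₀
  have main : ∀ (w : E) (G : X), (∀ s, ¬ ¬ s ∈ F → w s = 0) → G x = 0 →
      ‖x + (t / 6) • w‖ ^ 2 ≤ ‖x‖ ^ 2 + 3 * (t / 6) ^ 2 * ‖res (fun s => ¬ s ∈ F) y₀‖ ^ 2 →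
      (1 - η / 2) / 2 ≤ G w → 1 + 2 * η ≤ ‖f + t • G‖ := by
    intro w G hw hGx hnw hGw
    have h1 : ‖x + (t / 6) • w‖ ≤ 1 + a := by
      refine abs_le_of_sq_le_sq' (hnw.trans ?_) (by positivity) |>.2
      have e1 : ‖x‖ ^ 2 ≤ 1 := pow_le_one₀ (norm_nonneg _) hx
      have e2 : ‖res (fun s => ¬ s ∈ F) y₀‖ ^ 2 ≤ 1 := pow_le_one₀ (norm_nonneg _) hy1
      have e3 : 3 * (t / 6) ^ 2 = 2 * a := by rw [ha]; ring
      rw [e3]
      nlinarith [mul_le_mul_of_nonneg_left e2 ha0.le, sq_nonneg a]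
    have h2 : (t / 6) • w = res (fun s => ¬ s ∈ F) (x + (t / 6) • w) := by
      refine E.ext' fun s => ?_
      rw [res_ap]
      split_ifs with h
      · rw [smul_ap, hw s (not_not.2 h), mul_zero]
      · rw [add_ap, hxU s h, zero_add]
    have h3 : ‖(t / 6) • w‖ ≤ 1 + a := by
      rw [h2]
      exact (norm_res_le hF.cvx_not _).trans h1
    have h4 := hsm ((t / 6) • w) fun s hs => by rw [smul_ap, hw s (not_not.2 hs), mul_zero]
    have h5 : |f ((t / 6) • w)| ≤ η / 2 * (1 + a) :=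
      h4.trans (mul_le_mul_of_nonneg_left h3 (by positivity))
    have h6 := (f + t • G).le_opNorm (x + (t / 6) • w)
    have h7 : (f + t • G) (x + (t / 6) • w) = f x + f ((t / 6) • w) + 4 * a * G w := by
      rw [ContinuousLinearMap.add_apply, ContinuousLinearMap.smul_apply, map_add, map_add, hGx,
        map_smul G, ha]
      simp only [smul_eq_mul]
      ring
    rw [h7, Real.norm_eq_abs] at h6
    have h8 := (le_abs_self _).trans (h6.trans (mul_le_mul_of_nonneg_left h1 (norm_nonneg _)))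
    have h9 := (abs_le.1 h5).1
    have h10 : 4 * a * ((1 - η / 2) / 2) ≤ 4 * a * G w :=
      mul_le_mul_of_nonneg_left hGw (by positivity)
    refine le_of_mul_le_mul_right ?_ (show 0 < 1 + a by positivity)
    nlinarith
  rw [huu, map_sub] at hgy'
  by_cases hcase : (1 - η / 2) / 2 ≤ g u
  · exact (main u g hu hgx hn hcase).trans (le_max_left _ _)
  · have := main u' (-g) hu' (by simp [hgx]) hn' (by
      rw [ContinuousLinearMap.neg_apply]
      linarith)
    rw [smul_neg, ← sub_eq_add_neg] at this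
    exact this.trans (le_max_right _ _)

theorem infinite_dim : ¬ FiniteDimensional ℝ X := fun _ =>
  not_auc ⟨normSeminorm ℝ X, ⟨1, 1, one_pos, fun x => by simp⟩, auc_of_finite⟩

end Vale.Agent.P069
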