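import Vale.Agent.P069.Space

namespace Vale.Agent.P069

open Finset

def IsTop (U : T → Prop) (r : T) : Prop := U r ∧ ∀ s, s ≤ r → U s → s = r

theorem exists_top (U : T → Prop) {c : T} (hc : U c) : ∃ r, r ≤ c ∧ IsTop U r := by
  classical
  obtain ⟨r, hr, hmin⟩ := exists_min_image ((anc c).filter U) (fun s => s.l.length)
    ⟨c, mem_filter.2 ⟨mem_anc.2 le_rfl, hc⟩⟩
  rw [mem_filter, mem_anc] at hr
  refine ⟨r, hr.1, hr.2, fun s hs hU => le_antisymm hs ?_⟩
  exact le_of_len (Or.inr hs) (hmin s (mem_filter.2 ⟨mem_anc.2 (hs.trans hr.1), hU⟩))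

theorem IsTop.le {U : T → Prop} {r s c : T} (h : IsTop U r) (hr : r ≤ c) (hs : s ≤ c) (hU : U s) :
    r ≤ s := by
  rcases chain hr hs with h1 | h1
  · exact h1
  · exact (h.2 s h1 hU).ge

theorem top_unique {U : T → Prop} {r r' c : T} (h : IsTop U r) (h' : IsTop U r') (hr : r ≤ c)
    (hr' : r' ≤ c) : r = r' :=
  le_antisymm (h.le hr hr' h'.1) (h'.le hr' hr h.1)

open Classical in
noncomputable def vseg (x : E) (b r : T) : ℝ := ∑ s ∈ (anc r).filter (fun s => b ≤ s), x s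

theorem exists_sign (x : E) (r : T) (θ : ℝ) : ∃ ε : ℝ, (ε = 1 ∨ ε = -1) ∧
    ∀ b, b ≤ r → θ ≤ |vseg x b r| → ∃ b₁, b ≤ b₁ ∧ b₁ ≤ r ∧ θ ≤ ε * vseg x b₁ r := by
  classical
  rcases ((anc r).filter (fun b => θ ≤ |vseg x b r|)).eq_empty_or_nonempty with h | h
  · refine ⟨1, Or.inl rfl, fun b hb hθ => ?_⟩
    have : b ∈ (anc r).filter (fun b => θ ≤ |vseg x b r|) := mem_filter.2 ⟨mem_anc.2 hb, hθ⟩
    rw [h] at this
    simp at this
  · obtain ⟨b₁, hb₁, hmax⟩ := exists_max_image _ (fun s : T => s.l.length) h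
    rw [mem_filter, mem_anc] at hb₁
    refine ⟨if 0 ≤ vseg x b₁ r then 1 else -1, by split_ifs <;> simp, fun b hb hθ => ?_⟩
    refine ⟨b₁, le_of_len (chain hb hb₁.1) (hmax b (mem_filter.2 ⟨mem_anc.2 hb, hθ⟩)), hb₁.1, ?_⟩
    refine hb₁.2.trans (le_of_eq ?_)
    split_ifs with h0
    · rw [abs_of_nonneg h0, one_mul]
    · rw [abs_of_neg (not_le.1 h0)]
      ring

theorem exists_cum_max (y : E) (r : T) :
    ∃ c, r ≤ c ∧ ∀ c', r ≤ c' → |cum y c'| ≤ |cum y c| := by
  classical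
  have hfin : ((fun c => |cum y c|) '' {c | r ≤ c}).Finite := by
    refine ((supp y).powerset.image (fun G => |∑ s ∈ G, y s|)).finite_toSet.subset ?_
    rintro _ ⟨c, -, rfl⟩
    simp only [coe_image, Set.mem_image, mem_coe, mem_powerset]
    refine ⟨(anc c).filter (· ∈ supp y), fun s hs => (mem_filter.1 hs).2, ?_⟩
    unfold cum
    congr 1
    refine sum_filter_of_ne fun s _ hs => ?_
    by_contra h
    exact hs (not_mem_supp.1 h)
  have hne : ((fun c => |cum y c|) '' {c | r ≤ c}).Nonempty := ⟨_, r, show r ≤ r from le_rfl, rfl⟩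
  obtain ⟨c, hc, hc'⟩ := hne.csSup_mem hfin
  refine ⟨c, hc, fun c' h => ?_⟩
  have := le_csSup hfin.bddAbove ⟨c', h, rfl⟩
  rw [← hc'] at this
  exact this

noncomputable def ph (ε z : ℝ) : ℝ := -ε * max (-ε * z) 0

theorem ph_zero (ε : ℝ) : ph ε 0 = 0 := by simp [ph]

theorem ph_lip {ε : ℝ} (h : ε = 1 ∨ ε = -1) (z w : ℝ) : |ph ε z - ph ε w| ≤ |z - w| := by
  unfold ph
  rw [← mul_sub, abs_mul]
  have h1 : |-ε| = 1 := by rcases h with rfl | rfl <;> simp
  rw [h1, one_mul]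
  refine (abs_max_sub_max_le_abs _ _ _).trans (le_of_eq ?_)
  rw [← mul_sub, abs_mul, h1, one_mul]

theorem ph_sign {ε : ℝ} (h : ε = 1 ∨ ε = -1) (z : ℝ) : ε * ph ε z ≤ 0 := by
  unfold ph
  have := le_max_right (-ε * z) 0
  rcases h with rfl | rfl <;> nlinarith

theorem ph_sub {ε : ℝ} (h : ε = 1 ∨ ε = -1) (z : ℝ) : ph ε z - ph ε (-z) = z := by
  unfold ph
  rcases h with rfl | rfl <;> rcases le_total z 0 with hz | hz <;> simp [hz]

/-- The part of `y` whose cumulative sums have sign opposite to `e`. -/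
noncomputable def part (e : T → ℝ) (y : E) : E :=
  ofF (Finsupp.onFinset (supp y) (fun c => ph (e c) (cum y c) - ph (e c) (cum y c - y c))
    (fun c hc => by
      by_contra h
      rw [not_mem_supp.1 h] at hc
      simp at hc))

theorem part_ap (e : T → ℝ) (y : E) (c : T) :
    part e y c = ph (e c) (cum y c) - ph (e c) (cum y c - y c) := rfl

theorem cum_neg (y : E) (c : T) : cum (-y : E) c = - cum y c := by
  unfold cum
  simp

theorem part_sub (e : T → ℝ) (he : ∀ c, e c = 1 ∨ e c = -1) (y : E) :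
    part e y - part e (-y) = y := by
  refine E.ext' fun c => ?_
  rw [sub_ap, part_ap, part_ap, cum_neg, neg_ap]
  have h1 := ph_sub (he c) (cum y c)
  have h2 := ph_sub (he c) (cum y c - y c)
  rw [show -cum y c - -y c = -(cum y c - y c) by ring]
  linarith

theorem arith_bad {ε v w p σ W : ℝ} (hε : ε = 1 ∨ ε = -1) (hσ : 0 < σ) (hw : ε * w ≤ 0)
    (hwW : |w| ≤ W) (hp : σ * W ≤ ε * p) (hvw : 0 < v * w) :
    v ^ 2 + 2 * σ * (v * w) ≤ p ^ 2 + (v - p) ^ 2 := by
  rw [abs_le] at hwW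
  rcases hε with rfl | rfl
  · have hw' : w < 0 := lt_of_le_of_ne (by linarith) (by rintro rfl; simp at hvw)
    have hv : v < 0 := by nlinarith
    have : σ * (-w) ≤ p := by nlinarith
    nlinarith [mul_le_mul_of_nonneg_left this (show 0 ≤ -v by linarith), sq_nonneg p]
  · have hw' : 0 < w := lt_of_le_of_ne (by linarith) (by rintro rfl; simp at hvw)
    have hv : 0 < v := by nlinarith
    have : σ * w ≤ -p := by nlinarith
    nlinarith [mul_le_mul_of_nonneg_left this hv.le, sq_nonneg p]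

section key

variable (U : T → Prop) [DecidablePred U] (hU : ∀ a b, U a → a ≤ b → U b) (x y : E)
  (hx : ∀ s, U s → x s = 0) (hy : ∀ s, ¬ U s → y s = 0) (σ : ℝ) (hσ : 0 < σ)
  (cm : T → T) (hcm : ∀ r, r ≤ cm r ∧ ∀ c, r ≤ c → |cum y c| ≤ |cum y (cm r)|)
  (e : T → ℝ) (he : ∀ c, e c = 1 ∨ e c = -1) (hec : ∀ a b, U a → a ≤ b → e a = e b)
  (hsign : ∀ r, IsTop U r → ∀ b, b ≤ r → σ * |cum y (cm r)| ≤ |vseg x b r| →
    ∃ b₁, b ≤ b₁ ∧ b₁ ≤ r ∧ σ * |cum y (cm r)| ≤ e r * vseg x b₁ r)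

include hU hx hy hσ hcm he hec hsign

theorem seg_key (S : Finset T) (hS : IsSeg S) : ∃ A B D : Finset T, IsSeg A ∧ IsSeg B ∧ IsSeg D ∧
    A ⊆ S ∧ B ⊆ S ∧ Disjoint A B ∧ (D = ∅ ∨ ∃ r ∈ S, IsTop U r ∧ ∀ s ∈ D, r ≤ s) ∧
    (∑ s ∈ S, (x + σ • part e y) s) ^ 2 ≤ (∑ s ∈ A, x s) ^ 2 + (∑ s ∈ B, x s) ^ 2 +
      2 * σ ^ 2 * (∑ s ∈ D, y s) ^ 2 + σ ^ 2 * (∑ s ∈ S.filter U, y s) ^ 2 := by
  classical
  have hcU : Cvx U := fun a _ c ha _ hac _ => hU a c ha hac
  have hsum : ∑ s ∈ S, (x + σ • part e y) s =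
      ∑ s ∈ S, x s + σ * ∑ s ∈ S.filter U, part e y s := by
    simp only [add_ap, smul_ap, sum_add_distrib, ← mul_sum]
    congr 2
    refine (sum_filter_of_ne fun s _ hs => ?_).symm
    by_contra h
    rw [part_ap, hy s h] at hs
    simp at hs
  rw [hsum]
  set v := ∑ s ∈ S, x s with hv
  set w := ∑ s ∈ S.filter U, part e y s with hw
  set z := ∑ s ∈ S.filter U, y s with hz
  by_cases hvw : v * w ≤ 0 ∧ w ^ 2 ≤ z ^ 2
  · refine ⟨S, ∅, ∅, hS, isSeg_empty, isSeg_empty, subset_rfl, empty_subset _,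
      disjoint_empty_right _, Or.inl rfl, ?_⟩
    simp only [sum_empty]
    nlinarith [mul_le_mul_of_nonneg_left hvw.1 hσ.le,
      mul_le_mul_of_nonneg_left hvw.2 (sq_nonneg σ)]
  rcases (S.filter U).eq_empty_or_nonempty with h0 | hne
  · exact absurd ⟨by rw [hw, h0]; simp, by rw [hw, hz, h0]; simp⟩ hvw
  obtain ⟨r, hr, b, hb, hrb, htel⟩ := telescope _ (hS.filter hcU) hne
  have hrU : U r := (mem_filter.1 hr).2
  have hw' : w = ph (e r) (cum y b) - ph (e r) (cum y r - y r) := by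
    rw [← htel (ph (e r)) y, hw]
    refine sum_congr rfl fun c hc => ?_
    rw [part_ap, hec r c hrU (hrb c hc).1]
  have hz' : z = cum y b - (cum y r - y r) := by
    rw [← htel (fun t => t) y, hz]
    exact sum_congr rfl fun c _ => by ring
  have hwz : w ^ 2 ≤ z ^ 2 := by
    rw [sq_le_sq, hw', hz']
    exact ph_lip (he r) _ _
  have hpos : 0 < v * w := by
    by_contra h
    exact hvw ⟨not_lt.1 h, hwz⟩
  have hv0 : v ≠ 0 := by
    rintro h
    rw [h] at hpos
    simp at hpos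
  obtain ⟨a₀, ha₀, hxa₀⟩ := exists_ne_zero_of_sum_ne_zero hv0
  have ha₀U : ¬ U a₀ := fun h => hxa₀ (hx _ h)
  have hrS : r ∈ S := (mem_filter.1 hr).1
  have ha₀r : a₀ ≤ r := by
    rcases hS.1 a₀ ha₀ r hrS with h | h
    · exact h
    · exact absurd (hU _ _ hrU h) ha₀U
  have htop : IsTop U r := by
    refine ⟨hrU, fun s hs hsU => le_antisymm hs ?_⟩
    rcases chain hs ha₀r with h | h
    · exact absurd (hU _ _ hsU h) ha₀U
    · exact (hrb s (mem_filter.2 ⟨hS.2 a₀ ha₀ r hrS s h hs, hsU⟩)).1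
  have hH : cum y r - y r = 0 := by
    unfold cum
    rw [sum_eq_single_of_mem r (mem_anc.2 le_rfl), sub_self]
    intro s hs hsr
    exact hy s fun h => hsr (htop.2 s (mem_anc.1 hs) h)
  rw [hH, ph_zero, sub_zero] at hw'
  have hwW : |w| ≤ |cum y (cm r)| := by
    have h1 := ph_lip (he r) (cum y b) 0
    rw [ph_zero, sub_zero, sub_zero, ← hw'] at h1
    exact h1.trans ((hcm r).2 b (hrb b hb).1)
  have hD : ∑ s ∈ (anc (cm r)).filter U, y s = cum y (cm r) := by
    unfold cum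
    refine sum_filter_of_ne fun s _ hs => ?_
    by_contra h
    exact hs (hy s h)
  have hDr : ∀ s ∈ (anc (cm r)).filter U, r ≤ s := fun s hs =>
    htop.le (hcm r).1 (mem_anc.1 (mem_filter.1 hs).1) (mem_filter.1 hs).2
  obtain ⟨a, ha, b', -, haS, -⟩ := telescope S hS ⟨r, hrS⟩
  have hvs : ∀ b₁, a ≤ b₁ → vseg x b₁ r = ∑ s ∈ S.filter (fun s => b₁ ≤ s), x s := by
    intro b₁ hb₁
    unfold vseg
    refine sum_subset_zero_on_sdiff ?_ ?_ (fun _ _ => rfl)
    · intro s hs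
      rw [mem_filter, mem_anc] at hs
      exact mem_filter.2 ⟨hS.2 a ha r hrS s (hb₁.trans hs.2) hs.1, hs.2⟩
    · intro s hs
      rw [mem_sdiff, mem_filter, mem_filter, mem_anc] at hs
      rcases hS.1 s hs.1.1 r hrS with h | h
      · exact absurd ⟨h, hs.1.2⟩ hs.2
      · exact hx s (hU _ _ hrU h)
  have hva : vseg x a r = v := by
    rw [hvs a le_rfl, filter_true_of_mem fun s hs => (haS s hs).1]
  have hsq : |cum y (cm r)| ^ 2 = cum y (cm r) ^ 2 := sq_abs _
  by_cases hrel : σ * |cum y (cm r)| ≤ |v|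
  · obtain ⟨b₁, hab₁, -, hb₁⟩ := hsign r htop a (haS r hrS).1 (hva ▸ hrel)
    refine ⟨S.filter (fun s => b₁ ≤ s), S.filter (fun s => ¬ b₁ ≤ s), ∅,
      hS.filter fun _ _ _ h _ h1 _ => h.trans h1,
      hS.filter fun _ _ _ _ h _ h1 h2 => h (h2.trans h1), isSeg_empty, filter_subset _ _,
      filter_subset _ _, disjoint_filter_filter_not _ _ _, Or.inl rfl, ?_⟩
    have hsplit := sum_filter_add_sum_filter_not S (fun s => b₁ ≤ s) (fun s => x s)
    rw [← hv, ← hvs b₁ hab₁] at hsplit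
    rw [← hvs b₁ hab₁, show ∑ s ∈ S.filter (fun s => ¬ b₁ ≤ s), x s = v - vseg x b₁ r by linarith]
    have := arith_bad (he r) hσ (hw' ▸ ph_sign (he r) _) hwW hb₁ hpos
    simp only [sum_empty]
    nlinarith [mul_le_mul_of_nonneg_left hwz (sq_nonneg σ)]
  · refine ⟨S, ∅, (anc (cm r)).filter U, hS, isSeg_empty, (isSeg_anc _).filter hcU, subset_rfl,
      empty_subset _, disjoint_empty_right _, Or.inr ⟨r, hrS, htop, hDr⟩, ?_⟩
    rw [hD, ← hsq]
    simp only [sum_empty]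
    have h1 : v * w ≤ σ * |cum y (cm r)| * |cum y (cm r)| := by
      refine (le_abs_self _).trans ?_
      rw [abs_mul]
      exact mul_le_mul (not_le.1 hrel).le hwW (abs_nonneg _) (by positivity)
    nlinarith [mul_le_mul_of_nonneg_left hwz (sq_nonneg σ), mul_le_mul_of_nonneg_left h1 hσ.le]

theorem norm_key : ‖x + σ • part e y‖ ^ 2 ≤ ‖x‖ ^ 2 + 3 * σ ^ 2 * ‖y‖ ^ 2 := by
  classical
  have hcU : Cvx U := fun a _ c ha _ hac _ => hU a c ha hac
  refine norm_sq_le fun ι _ S hS => ?_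
  choose A B D hA hB hD hAS hBS hAB hDr hle using
    fun i => seg_key U hU x y hx hy σ hσ cm hcm e he hec hsign (S i) (hS.1 i)
  have h1 : Adm (Sum.elim A B) := by
    constructor
    · rintro (i | i)
      · exact hA i
      · exact hB i
    · rintro (i | i) (j | j) hij
      · exact (hS.2 i j (fun h => hij (by rw [h]))).mono (hAS i) (hAS j)
      · by_cases h : i = j
        · subst h
          exact hAB i
        · exact (hS.2 i j h).mono (hAS i) (hBS j)
      · by_cases h : i = j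
        · subst h
          exact (hAB i).symm
        · exact (hS.2 i j h).mono (hBS i) (hAS j)
      · exact (hS.2 i j (fun h => hij (by rw [h]))).mono (hBS i) (hBS j)
  have h2 : Adm D := by
    refine ⟨hD, fun i j hij => ?_⟩
    rcases hDr i with h | ⟨r, hr, htop, hrD⟩
    · rw [h]
      exact disjoint_empty_left _
    rcases hDr j with h | ⟨r', hr', htop', hrD'⟩
    · rw [h]
      exact disjoint_empty_right _
    rw [disjoint_left]
    intro s hs hs'
    have := top_unique htop htop' (hrD s hs) (hrD' s hs')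
    subst this
    exact disjoint_left.1 (hS.2 i j hij) hr hr'
  have h3 := val_le h1 x
  have h4 := val_le h2 y
  have h5 := val_le (hS.filter hcU) y
  unfold val at h3 h4 h5 ⊢
  rw [Fintype.sum_sum_type] at h3
  simp only [Sum.elim_inl, Sum.elim_inr] at h3
  refine (sum_le_sum fun i _ => hle i).trans ?_
  simp only [sum_add_distrib, ← mul_sum]
  nlinarith [mul_le_mul_of_nonneg_left h4 (sq_nonneg σ), mul_le_mul_of_nonneg_left h5 (sq_nonneg σ)]

end key

/-- The sign decomposition. -/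
theorem decomposition (U : T → Prop) (hU : ∀ a b, U a → a ≤ b → U b) (x y : E)
    (hx : ∀ s, U s → x s = 0) (hy : ∀ s, ¬ U s → y s = 0) (σ : ℝ) (hσ : 0 < σ) :
    ∃ u u' : E, y = u - u' ∧ (∀ s, ¬ U s → u s = 0) ∧ (∀ s, ¬ U s → u' s = 0) ∧
      ‖x + σ • u‖ ^ 2 ≤ ‖x‖ ^ 2 + 3 * σ ^ 2 * ‖y‖ ^ 2 ∧
      ‖x + σ • u'‖ ^ 2 ≤ ‖x‖ ^ 2 + 3 * σ ^ 2 * ‖y‖ ^ 2 := by
  classical
  choose cm hcm using exists_cum_max y
  choose ε hε hsg using fun r => exists_sign x r (σ * |cum y (cm r)|)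
  have : ∀ c, ∃ r, U c → r ≤ c ∧ IsTop U r := fun c => by
    by_cases h : U c
    · obtain ⟨r, hr⟩ := exists_top U h
      exact ⟨r, fun _ => hr⟩
    · exact ⟨c, fun h' => absurd h' h⟩
  choose tp htp using this
  have hec : ∀ a b, U a → a ≤ b → ε (tp a) = ε (tp b) := by
    intro a b ha hab
    rw [top_unique (htp a ha).2 (htp b (hU a b ha hab)).2 ((htp a ha).1.trans hab)
      (htp b (hU a b ha hab)).1]
  have htr : ∀ r, IsTop U r → tp r = r := fun r hr =>
    top_unique (htp r hr.1).2 hr (htp r hr.1).1 le_rfl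
  refine ⟨part (fun c => ε (tp c)) y, part (fun c => ε (tp c)) (-y),
    (part_sub _ (fun c => hε _) y).symm, ?_, ?_, ?_, ?_⟩
  · intro s hs
    rw [part_ap, hy s hs]
    simp
  · intro s hs
    rw [part_ap, neg_ap, hy s hs]
    simp
  · refine norm_key U hU x y hx hy σ hσ cm hcm _ (fun c => hε _) hec ?_
    intro r hr
    rw [htr r hr]
    exact hsg r
  · have := norm_key U hU x (-y) hx (fun s hs => by rw [neg_ap, hy s hs, neg_zero]) σ hσ cm
      (by simpa only [cum_neg, abs_neg] using hcm) _ (fun c => hε _) hec (by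
        intro r hr
        rw [htr r hr, cum_neg, abs_neg]
        exact hsg r)
    rwa [norm_neg] at this

end Vale.Agent.P069
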