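import Vale.Agent.P069.Tree

namespace Vale.Agent.P069

open Finset

/-- Finitely supported functions on the forest, to be given the James tree norm. -/
def E : Type := T →₀ ℝ

noncomputable instance : AddCommGroup E := inferInstanceAs (AddCommGroup (T →₀ ℝ))
noncomputable instance : Module ℝ E := inferInstanceAs (Module ℝ (T →₀ ℝ))

def toF (x : E) : T →₀ ℝ := x
def ofF (x : T →₀ ℝ) : E := x

noncomputable instance : CoeFun E (fun _ => T → ℝ) := ⟨fun x => toF x⟩

@[simp] theorem add_ap (x y : E) (s : T) : (x + y) s = x s + y s := rfl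
@[simp] theorem sub_ap (x y : E) (s : T) : (x - y) s = x s - y s := rfl
@[simp] theorem neg_ap (x : E) (s : T) : (-x) s = - x s := rfl
@[simp] theorem smul_ap (c : ℝ) (x : E) (s : T) : (c • x) s = c * x s := rfl
@[simp] theorem zero_ap (s : T) : (0 : E) s = 0 := rfl

theorem E.ext' {x y : E} (h : ∀ s, x s = y s) : x = y := Finsupp.ext h

/-- The support as a finset. -/
def supp (x : E) : Finset T := (toF x).support

theorem not_mem_supp {x : E} {s : T} : s ∉ supp x ↔ x s = 0 := Finsupp.notMem_support_iff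

noncomputable def val {ι : Type} [Fintype ι] (S : ι → Finset T) (x : E) : ℝ :=
  ∑ i, (∑ s ∈ S i, x s) ^ 2

def vals (x : E) : Set ℝ :=
  {v | ∃ (ι : Type) (_ : Fintype ι) (S : ι → Finset T), Adm S ∧ v = val S x}

theorem val_nonneg {ι : Type} [Fintype ι] (S : ι → Finset T) (x : E) : 0 ≤ val S x :=
  sum_nonneg fun _ _ => sq_nonneg _

theorem val_le_l1 {ι : Type} [Fintype ι] {S : ι → Finset T} (h : Adm S) (x : E) :
    val S x ≤ (∑ s ∈ supp x, |x s|) ^ 2 := by
  have h1 := h.sum_le (supp x) (fun s => |x s|) (fun s => abs_nonneg _)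
    (fun s hs => by simp [not_mem_supp.1 hs])
  have h2 : val S x ≤ (∑ i, ∑ s ∈ S i, |x s|) ^ 2 := by
    refine le_trans ?_ (sum_sq_le_sq_sum_of_nonneg (fun i _ => sum_nonneg fun s _ => abs_nonneg _))
    refine sum_le_sum fun i _ => ?_
    rw [← sq_abs]
    exact pow_le_pow_left₀ (abs_nonneg _) (abs_sum_le_sum_abs _ _) 2
  exact h2.trans (pow_le_pow_left₀ (sum_nonneg fun i _ => sum_nonneg fun s _ => abs_nonneg _) h1 2)

theorem vals_bdd (x : E) : BddAbove (vals x) :=
  ⟨_, by rintro v ⟨ι, _, S, h, rfl⟩; exact val_le_l1 h x⟩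

theorem adm_empty : Adm (fun _ : Empty => (∅ : Finset T)) :=
  ⟨fun _ => isSeg_empty, fun i => i.elim⟩

theorem vals_ne (x : E) : (vals x).Nonempty := ⟨_, Empty, inferInstance, _, adm_empty, rfl⟩

noncomputable def nsq (x : E) : ℝ := sSup (vals x)

theorem le_nsq {ι : Type} [Fintype ι] {S : ι → Finset T} (h : Adm S) (x : E) : val S x ≤ nsq x :=
  le_csSup (vals_bdd x) ⟨ι, inferInstance, S, h, rfl⟩

theorem nsq_le {x : E} {c : ℝ}
    (h : ∀ (ι : Type) [Fintype ι] (S : ι → Finset T), Adm S → val S x ≤ c) : nsq x ≤ c :=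
  csSup_le (vals_ne x) (by rintro v ⟨ι, _, S, hS, rfl⟩; exact h ι S hS)

theorem nsq_nonneg (x : E) : 0 ≤ nsq x := (val_nonneg _ _).trans (le_nsq adm_empty x)

theorem seg_sq_le {S : Finset T} (hS : IsSeg S) (x : E) : (∑ s ∈ S, x s) ^ 2 ≤ nsq x := by
  have h : Adm (fun _ : Unit => S) := ⟨fun _ => hS, fun i j hij => absurd rfl hij⟩
  have := le_nsq h x
  simpa [val] using this

theorem sqrt_val_add {ι : Type} [Fintype ι] (S : ι → Finset T) (x y : E) :
    val S (x + y) ≤ (√(val S x) + √(val S y)) ^ 2 := by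
  have hcs := sum_mul_sq_le_sq_mul_sq univ (fun i => ∑ s ∈ S i, x s) (fun i => ∑ s ∈ S i, y s)
  have h1 : ∑ i, (∑ s ∈ S i, x s) * (∑ s ∈ S i, y s) ≤ √(val S x) * √(val S y) := by
    rw [← Real.sqrt_mul (val_nonneg _ _)]
    exact Real.le_sqrt_of_sq_le hcs
  have h2 : val S (x + y) = val S x + val S y +
      2 * ∑ i, (∑ s ∈ S i, x s) * (∑ s ∈ S i, y s) := by
    unfold val
    rw [mul_sum, ← sum_add_distrib, ← sum_add_distrib]
    refine sum_congr rfl fun i _ => ?_
    simp only [add_ap, sum_add_distrib]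
    ring
  have h3 := Real.sq_sqrt (val_nonneg S x)
  have h4 := Real.sq_sqrt (val_nonneg S y)
  nlinarith

theorem val_smul {ι : Type} [Fintype ι] (S : ι → Finset T) (c : ℝ) (x : E) :
    val S (c • x) = c ^ 2 * val S x := by
  unfold val
  rw [mul_sum]
  refine sum_congr rfl fun i _ => ?_
  simp only [smul_ap, ← mul_sum]
  ring

theorem nsq_smul_le (c : ℝ) (x : E) : nsq (c • x) ≤ c ^ 2 * nsq x :=
  nsq_le fun ι _ S hS => by
    rw [val_smul]
    exact mul_le_mul_of_nonneg_left (le_nsq hS x) (sq_nonneg _)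

noncomputable def jtNorm : AddGroupNorm E where
  toFun x := √(nsq x)
  map_zero' := by
    have : nsq (0 : E) ≤ 0 := nsq_le fun ι _ S _ => by simp [val]
    exact Real.sqrt_eq_zero'.2 this
  add_le' x y := by
    rw [Real.sqrt_le_left (by positivity)]
    refine nsq_le fun ι _ S hS => (sqrt_val_add S x y).trans ?_
    exact pow_le_pow_left₀ (by positivity)
      (add_le_add (Real.sqrt_le_sqrt (le_nsq hS x)) (Real.sqrt_le_sqrt (le_nsq hS y))) 2
  neg' x := by
    have h1 := nsq_smul_le (-1) x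
    have h2 := nsq_smul_le (-1) (-x)
    simp only [neg_smul, one_smul, neg_neg, even_two, Even.neg_pow, one_pow, one_mul] at h1 h2
    rw [le_antisymm h1 h2]
  eq_zero_of_map_eq_zero' x hx := by
    have h0 : nsq x ≤ 0 := Real.sqrt_eq_zero'.1 hx
    refine E.ext' fun s => ?_
    have := seg_sq_le (isSeg_singleton s) x
    rw [sum_singleton] at this
    have h2 : x s ^ 2 = 0 := le_antisymm (this.trans h0) (sq_nonneg _)
    simpa using h2

noncomputable instance : NormedAddCommGroup E := jtNorm.toNormedAddCommGroup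

theorem norm_eq (x : E) : ‖x‖ = √(nsq x) := rfl

theorem norm_sq_eq (x : E) : ‖x‖ ^ 2 = nsq x := Real.sq_sqrt (nsq_nonneg x)

noncomputable instance : NormedSpace ℝ E where
  norm_smul_le c x := by
    rw [norm_eq, norm_eq, Real.sqrt_le_left (by positivity), mul_pow, Real.sq_sqrt (nsq_nonneg x),
      Real.norm_eq_abs, sq_abs]
    exact nsq_smul_le c x

theorem val_le {ι : Type} [Fintype ι] {S : ι → Finset T} (h : Adm S) (x : E) :
    val S x ≤ ‖x‖ ^ 2 := norm_sq_eq x ▸ le_nsq h x

theorem norm_sq_le {x : E} {c : ℝ}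
    (h : ∀ (ι : Type) [Fintype ι] (S : ι → Finset T), Adm S → val S x ≤ c) : ‖x‖ ^ 2 ≤ c :=
  norm_sq_eq x ▸ nsq_le h

theorem seg_abs_le {S : Finset T} (hS : IsSeg S) (x : E) : |∑ s ∈ S, x s| ≤ ‖x‖ :=
  abs_le_of_sq_le_sq (norm_sq_eq x ▸ seg_sq_le hS x) (norm_nonneg _)

open Classical in
/-- Restriction to the nodes satisfying `p`. -/
noncomputable def res (p : T → Prop) : E →ₗ[ℝ] E where
  toFun x := ofF ((toF x).filter p)
  map_add' x y := Finsupp.filter_add
  map_smul' c x := Finsupp.filter_smul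

theorem res_ap (p : T → Prop) (x : E) (s : T) [Decidable (p s)] :
    res p x s = if p s then x s else 0 := by
  classical
  have : res p x s = @ite _ (p s) (Classical.propDecidable _) (x s) 0 :=
    @Finsupp.filter_apply _ _ _ p (fun _ => Classical.propDecidable _) _ _
  rw [this]
  congr

theorem res_add_res (p : T → Prop) (x : E) : res p x + res (fun s => ¬ p s) x = x := by
  classical
  refine E.ext' fun s => ?_
  rw [add_ap, res_ap, res_ap]
  by_cases h : p s <;> simp [h]

theorem sum_res (p : T → Prop) [DecidablePred p] (x : E) (S : Finset T) :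
    ∑ s ∈ S, res p x s = ∑ s ∈ S.filter p, x s := by
  rw [sum_filter]
  exact sum_congr rfl fun s _ => res_ap p x s

theorem val_res {ι : Type} [Fintype ι] (S : ι → Finset T) (p : T → Prop) [DecidablePred p]
    (x : E) :
    val S (res p x) = val (fun i => (S i).filter p) x := by
  unfold val
  exact sum_congr rfl fun i _ => by rw [sum_res]

theorem Adm.filter {ι : Type} {S : ι → Finset T} (h : Adm S) {p : T → Prop} [DecidablePred p]
    (hp : Cvx p) :
    Adm (fun i => (S i).filter p) :=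
  h.mono (fun i => (h.1 i).filter hp) (fun _ => filter_subset _ _)

theorem norm_res_le {p : T → Prop} (hp : Cvx p) (x : E) : ‖res p x‖ ≤ ‖x‖ := by
  classical
  refine abs_le_of_sq_le_sq' ?_ (norm_nonneg _) |>.2
  exact norm_sq_le fun ι _ S hS => by
    rw [val_res]
    exact val_le (hS.filter hp) x

/-- Lower two-estimate. -/
theorem lower_two {p : T → Prop} (hp : Cvx p) (hq : Cvx fun s => ¬ p s) (x : E) :
    ‖res p x‖ ^ 2 + ‖res (fun s => ¬ p s) x‖ ^ 2 ≤ ‖x‖ ^ 2 := by
  classical
  rw [← le_sub_iff_add_le]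
  refine norm_sq_le fun ι _ S hS => ?_
  rw [le_sub_comm]
  refine norm_sq_le fun κ _ R hR => ?_
  rw [val_res, val_res, le_sub_comm, le_sub_iff_add_le]
  have hadm : Adm (Sum.elim (fun i => (S i).filter p) (fun i => (R i).filter fun s => ¬ p s)) := by
    have h1 := hS.filter hp
    have h2 := hR.filter hq
    constructor
    · rintro (i | i)
      · exact h1.1 i
      · exact h2.1 i
    · rintro (i | i) (j | j) hij
      · exact h1.2 i j (fun h => hij (by rw [h]))
      · exact disjoint_filter_filter' _ _ (by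
          rw [Pi.disjoint_iff]; intro s; exact disjoint_compl_right (a := p s))
      · exact (disjoint_filter_filter' _ _ (by
          rw [Pi.disjoint_iff]; intro s; exact disjoint_compl_right (a := p s))).symm
      · exact h2.2 i j (fun h => hij (by rw [h]))
  have := val_le hadm x
  unfold val at this ⊢
  rw [Fintype.sum_sum_type] at this
  simp only [Sum.elim_inl, Sum.elim_inr] at this
  linarith

/-- Upper two-estimate across different trees. -/
theorem upper_two (n : ℕ) (x y : E) (hx : ∀ s, ¬ s.idx < n → x s = 0)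
    (hy : ∀ s, s.idx < n → y s = 0) : ‖x + y‖ ^ 2 ≤ ‖x‖ ^ 2 + ‖y‖ ^ 2 := by
  refine norm_sq_le fun ι _ S hS => le_trans ?_ (add_le_add (val_le hS x) (val_le hS y))
  unfold val
  rw [← sum_add_distrib]
  refine sum_le_sum fun i _ => ?_
  simp only [add_ap, sum_add_distrib]
  by_cases h : ∃ a ∈ S i, a.idx < n
  · obtain ⟨a, ha, han⟩ := h
    rw [sum_eq_zero (f := fun s => y s) fun s hs => hy s ((hS.1 i).idx_eq ha hs ▸ han)]
    simp
  · push Not at h
    rw [sum_eq_zero (f := fun s => x s) fun s hs => hx s (not_lt.2 (h s hs))]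
    simp

/-- Comparison with the Euclidean norm on the first `n` trees. -/
theorem norm_sq_le_l2 (n : ℕ) (x : E) (hx : ∀ s, ¬ s.idx < n → x s = 0) :
    ‖x‖ ^ 2 ≤ n * ∑ s ∈ supp x, x s ^ 2 := by
  refine norm_sq_le fun ι _ S hS => ?_
  have h1 := hS.sum_le (supp x) (fun s => x s ^ 2) (fun s => sq_nonneg _)
    (fun s hs => by simp [not_mem_supp.1 hs])
  refine le_trans ?_ (mul_le_mul_of_nonneg_left h1 (Nat.cast_nonneg n))
  rw [mul_sum]
  refine sum_le_sum fun i _ => ?_
  by_cases h : ∃ a ∈ S i, a.idx < n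
  · obtain ⟨a, ha, han⟩ := h
    refine (sq_sum_le_card_mul_sum_sq).trans ?_
    refine mul_le_mul_of_nonneg_right ?_ (sum_nonneg fun s _ => sq_nonneg _)
    exact_mod_cast ((hS.1 i).card_le ha).trans han
  · push Not at h
    rw [sum_eq_zero (f := fun s => x s) fun s hs => hx s (not_lt.2 (h s hs))]
    have : 0 ≤ ∑ s ∈ S i, x s ^ 2 := sum_nonneg fun s _ => sq_nonneg _
    have h0 : (0 : ℝ) ≤ n := Nat.cast_nonneg n
    nlinarith [mul_nonneg h0 this]

theorem l2_le_norm_sq (G : Finset T) (x : E) : ∑ s ∈ G, x s ^ 2 ≤ ‖x‖ ^ 2 := by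
  have h : Adm (fun i : G => ({i.1} : Finset T)) :=
    ⟨fun i => isSeg_singleton _, fun i j hij => by
      rw [disjoint_singleton]; exact fun h => hij (Subtype.ext h)⟩
  have := val_le h x
  unfold val at this
  simp only [sum_singleton] at this
  rwa [sum_coe_sort G (fun s => x s ^ 2)] at this

/-- A vector supported on an antichain has norm at most its Euclidean norm. -/
theorem norm_sq_le_anti (x : E) (hx : ∀ a b, x a ≠ 0 → x b ≠ 0 → a ≤ b → a = b) :
    ‖x‖ ^ 2 ≤ ∑ s ∈ supp x, x s ^ 2 := by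
  refine norm_sq_le fun ι _ S hS => ?_
  have h1 := hS.sum_le (supp x) (fun s => x s ^ 2) (fun s => sq_nonneg _)
    (fun s hs => by simp [not_mem_supp.1 hs])
  refine le_trans (sum_le_sum fun i _ => ?_) h1
  by_cases h : ∃ a ∈ S i, x a ≠ 0
  · obtain ⟨a, ha, hxa⟩ := h
    have hz : ∀ s ∈ S i, s ≠ a → x s = 0 := by
      intro s hs hsa
      by_contra hne
      rcases (hS.1 i).1 s hs a ha with h | h
      · exact hsa (hx s a hne hxa h)
      · exact hsa (hx a s hxa hne h).symm
    rw [sum_eq_single_of_mem a ha hz, sum_eq_single_of_mem a ha (fun s hs hsa => by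
      rw [hz s hs hsa]; simp)]
  · push Not at h
    rw [sum_eq_zero h]
    simpa using sum_nonneg fun s _ => sq_nonneg (x s)

/-- Unit vectors. -/
noncomputable def uv (s : T) : E := ofF (Finsupp.single s 1)

theorem uv_ap (s c : T) : uv s c = if s = c then 1 else 0 := by
  show (Finsupp.single s (1 : ℝ)) c = _
  rw [Finsupp.single_apply]

theorem expand (x : E) (G : Finset T) (hG : supp x ⊆ G) : x = ∑ s ∈ G, x s • uv s := by
  refine E.ext' fun c => ?_
  have : (∑ s ∈ G, x s • uv s) c = ∑ s ∈ G, (x s • uv s) c :=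
    Finsupp.finset_sum_apply _ _ _
  rw [this]
  simp only [smul_ap, uv_ap, mul_ite, mul_one, mul_zero, sum_ite_eq']
  split_ifs with h
  · rfl
  · exact not_mem_supp.1 fun h' => h (hG h')

theorem norm_uv_le (s : T) : ‖uv s‖ ≤ 1 := by
  have h := norm_sq_le_anti (uv s) (by
    intro a b ha hb _
    rw [uv_ap] at ha hb
    have h1 : s = a := by by_contra h; simp [h] at ha
    have h2 : s = b := by by_contra h; simp [h] at hb
    rw [← h1, ← h2])
  have h2 : ∑ c ∈ supp (uv s), uv s c ^ 2 ≤ 1 := by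
    simp only [uv_ap, ite_pow, one_pow, ne_eq, OfNat.ofNat_ne_zero, not_false_eq_true, zero_pow,
      sum_ite_eq]
    split_ifs <;> norm_num
  exact abs_le_of_sq_le_sq' (by linarith) zero_le_one |>.2

end Vale.Agent.P069
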