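import Mathlib

namespace Vale.Agent.P069

open Finset

/-- Nodes of the forest: the tree number `n` has height `n` and is countably branching. -/
@[ext] structure T where
  idx : ℕ
  l : List ℕ
  hl : l.length ≤ idx

noncomputable instance : DecidableEq T := Classical.decEq T

instance : PartialOrder T where
  le a b := a.idx = b.idx ∧ a.l <+: b.l
  le_refl a := ⟨rfl, List.prefix_refl _⟩
  le_trans a b c h1 h2 := ⟨h1.1.trans h2.1, h1.2.trans h2.2⟩
  le_antisymm a b h1 h2 := T.ext h1.1 (h1.2.eq_of_length_le h2.2.length_le)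

theorem le_def (a b : T) : a ≤ b ↔ a.idx = b.idx ∧ a.l <+: b.l := Iff.rfl

theorem chain {a b c : T} (ha : a ≤ c) (hb : b ≤ c) : a ≤ b ∨ b ≤ a := by
  rcases List.prefix_or_prefix_of_prefix ha.2 hb.2 with h | h
  · exact Or.inl ⟨ha.1.trans hb.1.symm, h⟩
  · exact Or.inr ⟨hb.1.trans ha.1.symm, h⟩

/-- The finite set of ancestors of a node (the node included). -/
noncomputable def anc (c : T) : Finset T :=
  (range (c.l.length + 1)).image
    (fun k => (⟨c.idx, c.l.take k, (List.length_take_le' _ _).trans c.hl⟩ : T))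

theorem mem_anc {s c : T} : s ∈ anc c ↔ s ≤ c := by
  simp only [anc, mem_image, mem_range]
  constructor
  · rintro ⟨k, -, rfl⟩
    exact ⟨rfl, List.take_prefix _ _⟩
  · intro h
    refine ⟨s.l.length, Nat.lt_succ_of_le h.2.length_le, ?_⟩
    exact T.ext h.1.symm (List.prefix_iff_eq_take.1 h.2).symm

theorem card_anc_le (c : T) : (anc c).card ≤ c.idx + 1 := by
  refine card_image_le.trans ?_
  rw [card_range]
  exact Nat.succ_le_succ c.hl

theorem le_of_len {a b : T} (h : a ≤ b ∨ b ≤ a) (hl : a.l.length ≤ b.l.length) : a ≤ b := by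
  rcases h with h | h
  · exact h
  · exact ⟨h.1.symm, by rw [h.2.eq_of_length_le hl]⟩

/-- Segments: finite convex chains. -/
def IsSeg (S : Finset T) : Prop :=
  (∀ a ∈ S, ∀ b ∈ S, a ≤ b ∨ b ≤ a) ∧ ∀ a ∈ S, ∀ b ∈ S, ∀ c, a ≤ c → c ≤ b → c ∈ S

theorem isSeg_empty : IsSeg ∅ := by
  constructor <;> simp

theorem isSeg_singleton (a : T) : IsSeg {a} := by
  constructor
  · simp
  · intro x hx y hy c h1 h2
    rw [mem_singleton] at *
    subst hx
    subst hy
    exact le_antisymm h2 h1

/-- Convex predicates. -/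
def Cvx (p : T → Prop) : Prop := ∀ a b c, p a → p b → a ≤ c → c ≤ b → p c

theorem IsSeg.filter {S : Finset T} (h : IsSeg S) {p : T → Prop} [DecidablePred p] (hp : Cvx p) :
    IsSeg (S.filter p) := by
  constructor
  · intro a ha b hb
    exact h.1 a (mem_filter.1 ha).1 b (mem_filter.1 hb).1
  · intro a ha b hb c h1 h2
    rw [mem_filter] at *
    exact ⟨h.2 a ha.1 b hb.1 c h1 h2, hp a b c ha.2 hb.2 h1 h2⟩

theorem isSeg_anc (c : T) : IsSeg (anc c) := by
  constructor
  · intro a ha b hb
    exact chain (mem_anc.1 ha) (mem_anc.1 hb)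
  · intro a _ b hb d _ h2
    exact mem_anc.2 (h2.trans (mem_anc.1 hb))

/-- Cumulative sums. -/
noncomputable def cum (y : T → ℝ) (c : T) : ℝ := ∑ s ∈ anc c, y s

theorem telescope (S : Finset T) (hS : IsSeg S) (hne : S.Nonempty) :
    ∃ a ∈ S, ∃ b ∈ S, (∀ c ∈ S, a ≤ c ∧ c ≤ b) ∧ ∀ (φ : ℝ → ℝ) (y : T → ℝ),
      ∑ c ∈ S, (φ (cum y c) - φ (cum y c - y c)) = φ (cum y b) - φ (cum y a - y a) := by
  induction S using Finset.induction_on_max_value (fun c : T => c.l.length) with
  | empty => exact absurd hne (by simp)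
  | insert b' S hb' hmax ih =>
    have hle : ∀ c ∈ S, c ≤ b' := fun c hc =>
      le_of_len (hS.1 c (mem_insert_of_mem hc) b' (mem_insert_self _ _)) (hmax c hc)
    rcases S.eq_empty_or_nonempty with rfl | hne'
    · refine ⟨b', by simp, b', by simp, by simp, ?_⟩
      intro φ y
      simp
    · have hS' : IsSeg S := by
        constructor
        · intro a ha b hb
          exact hS.1 a (mem_insert_of_mem ha) b (mem_insert_of_mem hb)
        · intro a ha b hb c h1 h2
          have := hS.2 a (mem_insert_of_mem ha) b (mem_insert_of_mem hb) c h1 h2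
          rcases mem_insert.1 this with rfl | h
          · have : b = c := le_antisymm (hle b hb) h2
            exact this ▸ hb
          · exact h
      obtain ⟨a, ha, b, hb, hab, hφ⟩ := ih hS' hne'
      refine ⟨a, mem_insert_of_mem ha, b', mem_insert_self _ _, ?_, ?_⟩
      · intro c hc
        rcases mem_insert.1 hc with rfl | h
        · exact ⟨hle a ha, le_rfl⟩
        · exact ⟨(hab c h).1, hle c h⟩
      · intro φ y
        rw [sum_insert hb', hφ]
        have hanc : anc b' = insert b' (anc b) := by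
          ext s
          rw [mem_insert, mem_anc, mem_anc]
          constructor
          · intro hs
            rcases chain hs (hle b hb) with h | h
            · exact Or.inr h
            · have := hS.2 b (mem_insert_of_mem hb) b' (mem_insert_self _ _) s h hs
              rcases mem_insert.1 this with h' | h'
              · exact Or.inl h'
              · exact Or.inr (hab s h').2
          · rintro (rfl | h)
            · exact le_rfl
            · exact h.trans (hle b hb)
        have hnot : b' ∉ anc b := by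
          intro h
          have : b = b' := le_antisymm (hle b hb) (mem_anc.1 h)
          exact hb' (this ▸ hb)
        have : cum y b' - y b' = cum y b := by
          unfold cum
          rw [hanc, sum_insert hnot]
          ring
        rw [this]
        ring

theorem IsSeg.card_le {S : Finset T} (hS : IsSeg S) {a : T} (ha : a ∈ S) : S.card ≤ a.idx + 1 := by
  obtain ⟨_, -, b, hb, hab, -⟩ := telescope S hS ⟨a, ha⟩
  have h1 : S ⊆ anc b := fun c hc => mem_anc.2 (hab c hc).2
  have h2 : a.idx = b.idx := (hab a ha).2.1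
  rw [h2]
  exact (card_le_card h1).trans (card_anc_le b)

theorem IsSeg.idx_eq {S : Finset T} (hS : IsSeg S) {a b : T} (ha : a ∈ S) (hb : b ∈ S) :
    a.idx = b.idx := by
  rcases hS.1 a ha b hb with h | h
  · exact h.1
  · exact h.1.symm

/-- Admissible families: pairwise disjoint segments. -/
def Adm {ι : Type} (S : ι → Finset T) : Prop :=
  (∀ i, IsSeg (S i)) ∧ ∀ i j, i ≠ j → Disjoint (S i) (S j)

theorem Adm.mono {ι : Type} {S S' : ι → Finset T} (h : Adm S) (h1 : ∀ i, IsSeg (S' i))
    (h2 : ∀ i, S' i ⊆ S i) : Adm S' :=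
  ⟨h1, fun i j hij => (h.2 i j hij).mono (h2 i) (h2 j)⟩

theorem Adm.sum_le {ι : Type} [Fintype ι] {S : ι → Finset T} (h : Adm S) (G : Finset T)
    (w : T → ℝ) (hw : ∀ s, 0 ≤ w s) (hG : ∀ s, s ∉ G → w s = 0) :
    ∑ i, ∑ s ∈ S i, w s ≤ ∑ s ∈ G, w s := by
  classical
  rw [← sum_biUnion (fun i _ j _ hij => h.2 i j hij)]
  rw [← sum_filter_add_sum_filter_not _ (· ∈ G)]
  rw [sum_eq_zero (s := filter (fun s => s ∉ G) _) (fun s hs => hG s (mem_filter.1 hs).2), add_zero]
  exact sum_le_sum_of_subset_of_nonneg (fun s hs => (mem_filter.1 hs).2) (fun s _ _ => hw s)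

end Vale.Agent.P069
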